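import Vale.Agent.P245.Bdl.B2
import Vale.Agent.P245.H991.TB1

set_option linter.all false
set_option linter.unusedSectionVars false

open MeasureTheory Real Set Filter Topology
open scoped ENNReal ContDiff

/-! # Row SYM (P245): the antisymmetric part of the gradient of the lifted field on the down path -/

namespace Vale.Agent.P245.H719

open LS LS.Down E1

variable {n : ℕ}

/-- `E_q |A|²`, `A_jk = ∂_j f_k - ∂_k f_j` -/
noncomputable def AA (μ : Measure (Fin n → ℝ)) (r : ℝ) (N : (Fin n → ℝ) → ℝ)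
    (f : Fin n → (Fin n → ℝ) → ℝ) : ℝ :=
  EY μ r fun y => N y * ∑ j, ∑ k, (pd (f k) j y - pd (f j) k y) ^ 2

/-- `E_q |D A|²` -/
noncomputable def DA (μ : Measure (Fin n → ℝ)) (r : ℝ) (N : (Fin n → ℝ) → ℝ)
    (f : Fin n → (Fin n → ℝ) → ℝ) : ℝ :=
  EY μ r fun y => N y * ∑ j, ∑ k, ∑ l, (pd (pd (f k) j) l y - pd (pd (f j) k) l y) ^ 2

section quad

variable {μ : Measure (Fin n → ℝ)} [IsProbabilityMeasure μ] {R : ℝ} {I : Set ℝ}
  {f g e e' : ℝ → (Fin n → ℝ) → ℝ} {a a' : Fin n → ℝ → (Fin n → ℝ) → ℝ}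

theorem Um_sub (hf : Um μ I f e a) (hg : Um μ I g e' a') :
    Um μ I (fun σ y => f σ y - g σ y) (fun σ y => e σ y - e' σ y)
      (fun i σ y => a i σ y - a' i σ y) := by
  obtain ⟨d, da, a2, h1, h2, h3⟩ := hf.ex
  obtain ⟨d', da', a2', h1', h2', h3'⟩ := hg.ex
  refine ⟨_, _, _, h1.sub h1', fun i => (h2 i).sub (h2' i), fun σ hσ y => ?_⟩
  rw [h3 σ hσ, h3' σ hσ, Finset.sum_sub_distrib]
  simp_rw [mul_sub]
  rw [Finset.sum_sub_distrib]
  ring

/-- derivative of `E_q ∑ U_m²` along the down path, `(∂ - Δ/2 - ⟨∇ log p, ∇⟩) U_m = e_m` -/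
theorem down_quad {ι : Type*} (S : Finset ι) {U e : ι → ℝ → (Fin n → ℝ) → ℝ}
    {a : ι → Fin n → ℝ → (Fin n → ℝ) → ℝ} (h : ∀ m, Um μ I (U m) (e m) (a m)) (hμ : CSupp μ R)
    (hI : IsOpen I) (hI0 : I ⊆ Ioi 0) {N : (Fin n → ℝ) → ℝ} (hN : SB N) {c σ : ℝ} (hσ : σ ∈ I)
    (hc : σ < c) :
    HasDerivAt (fun σ => EY μ σ (fun y => PH (c - σ) N y * ∑ m ∈ S, U m σ y ^ 2))
      (EY μ σ (fun y => PH (c - σ) N y *
        ∑ m ∈ S, (2 * e m σ y * U m σ y - ∑ i, a m i σ y ^ 2))) σ := by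
  have hJ : IsOpen (I ∩ Iio c) := hI.inter isOpen_Iio
  have hJ0 : I ∩ Iio c ⊆ Ioi 0 := fun x hx => hI0 hx.1
  have hd : ∀ m, Um μ (I ∩ Iio c) (U m) (e m) (a m) := fun m => (h m).mono inter_subset_left
  have key := EY_dual hμ hJ hJ0 (Um.sum S fun m _ => (hd m).mul (hd m))
      ((Dn_PH hN c).mono inter_subset_right) ⟨hσ, hc⟩
  have e0 : (fun σ => EY μ σ (fun y => PH (c - σ) N y * ∑ m ∈ S, U m σ y ^ 2))
      = fun σ => EY μ σ (fun y => (∑ m ∈ S, U m σ y * U m σ y) * PH (c - σ) N y) := by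
    funext τ; congr 1; funext y; rw [mul_comm]; congr 1
    apply Finset.sum_congr rfl; intro i _; ring
  rw [e0]
  refine key.congr_deriv ?_
  congr 1
  funext y
  rw [mul_zero, add_zero, mul_comm]
  congr 1
  apply Finset.sum_congr rfl; intro m _
  have e2 : ∑ i, a m i σ y * a m i σ y = ∑ i, a m i σ y ^ 2 := by
    apply Finset.sum_congr rfl; intro j _; ring
  rw [e2]
  ring

theorem EY_addU (hμ : CSupp μ R) (hf : UE I f) (hg : UE I g) {σ : ℝ} (hσ : σ ∈ I) :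
    EY μ σ (fun y => f σ y + g σ y) = EY μ σ (f σ) + EY μ σ (g σ) :=
  EY_add' hμ (hf.cont hσ) (hf.eg1 hσ) (hg.cont hσ) (hg.eg1 hσ) σ

theorem EY_monoU (hμ : CSupp μ R) (hf : UE I f) (hg : UE I g) {σ : ℝ} (hσ : σ ∈ I)
    (h : ∀ y, f σ y ≤ g σ y) : EY μ σ (f σ) ≤ EY μ σ (g σ) := by
  have h1 : 0 ≤ EY μ σ (fun y => g σ y + (-1) * f σ y) :=
    EY_nonneg μ σ fun y => by have := h y; linarith
  rw [EY_addU hμ hg (hf.const_mul (-1)) hσ, EY_const_mul] at h1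
  linarith

end quad

section path

variable {ρ0 : (Fin n → ℝ) → ℝ} {R : ℝ} {s T : ℝ} {N : (Fin n → ℝ) → ℝ}
  {φ : Fin n → (Fin n → ℝ) → ℝ}

theorem PHN_nonneg (hN : Pos N) (u : ℝ) (y : Fin n → ℝ) : 0 ≤ PH u N y := by
  obtain ⟨ε, hε, hlb⟩ := hN.lb
  exact hε.le.trans (dn_PH_ge hN hlb u y)

/-- mixed second derivatives of `SB` functions commute -/
theorem pd_comm_sb {h : (Fin n → ℝ) → ℝ} (hh : SB h) (i j : Fin n) :
    pd (pd h i) j = pd (pd h j) i := by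
  have hc : ContDiff ℝ 2 h := hh.contDiff_nat 2
  funext y
  have hd : ∀ v : Fin n → ℝ, ∀ w : Fin n → ℝ,
      fderiv ℝ (fun z => fderiv ℝ h z v) y w = fderiv ℝ (fderiv ℝ h) y w v := by
    intro v w
    have h1 : DifferentiableAt ℝ (fderiv ℝ h) y :=
      (hc.fderiv_right (m := 1) (by norm_num)).differentiable (by norm_num) y
    have h2 : HasFDerivAt (fun z => fderiv ℝ h z v)
        (((ContinuousLinearMap.apply ℝ ℝ v)).comp (fderiv ℝ (fderiv ℝ h) y)) y :=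
      ((ContinuousLinearMap.apply ℝ ℝ v).hasFDerivAt).comp y h1.hasFDerivAt
    rw [h2.fderiv]
    simp
  have hs : IsSymmSndFDerivAt ℝ h y := by
    refine hc.contDiffAt.isSymmSndFDerivAt ?_
    simp
  unfold pd
  rw [hd, hd]
  exact hs _ _

/-- the score is a gradient -/
theorem sN_symm (hN : Pos N) (i j : Fin n) : pd (sN N i) j = pd (sN N j) i := by
  obtain ⟨ε, hε, hlb⟩ := hN.lb
  have hne : ∀ y, N y ≠ 0 := fun y => (hε.trans_le (hlb y)).ne'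
  have hd : ∀ i j, pd (sN N i) j = fun y => pd (pd N i) j y / N y
      - pd N i y * pd N j y / N y ^ 2 := by
    intro i j
    funext y
    have h := pd_div (hN.sb.pd i).differentiable hN.sb.differentiable hne j y
    have e : sN N i = fun y => pd N i y / N y := rfl
    rw [e, h]
    have := hne y
    field_simp
  rw [hd i j, hd j i, pd_comm_sb hN.sb i j]
  funext y
  ring

section

variable {μ : Measure (Fin n → ℝ)} [IsProbabilityMeasure μ]

theorem UE_pd (hμ : CSupp μ R) (hs : 0 < s) (hφ : ∀ i, SB (φ i)) (k j : Fin n) :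
    UE (Icc s T) (fun ρ => pd (UL μ s ρ (φ k)) j) :=
  (UE_pdUL (thUL n) hμ hs (hφ k) j).mono fun _ h => h.1

theorem cont_AA (hμ : CSupp μ R) (hs : 0 < s) (hN : Pos N) (hφ : ∀ i, SB (φ i)) :
    ContinuousOn (fun ρ => AA μ ρ (PH (T - ρ) N) (fun i => UL μ s ρ (φ i))) (Icc s T) := by
  refine UE.EY_cont_Icc hμ ((UE_PH hN.sb T _).mul (UE.sum _ fun j _ => UE.sum _ fun k _ => ?_))
  have h1 := (UE_pd (T := T) hμ hs hφ k j).sub (UE_pd (T := T) hμ hs hφ j k)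
  simpa only [sq] using h1.mul h1

theorem AA_nonneg {r : ℝ} {V : (Fin n → ℝ) → ℝ} (hV : ∀ y, 0 ≤ V y)
    (f : Fin n → (Fin n → ℝ) → ℝ) : 0 ≤ AA μ r V f :=
  EY_nonneg μ r fun y => mul_nonneg (hV y)
    (Finset.sum_nonneg fun _ _ => Finset.sum_nonneg fun _ _ => sq_nonneg _)

theorem DA_nonneg {r : ℝ} {V : (Fin n → ℝ) → ℝ} (hV : ∀ y, 0 ≤ V y)
    (f : Fin n → (Fin n → ℝ) → ℝ) : 0 ≤ DA μ r V f :=
  EY_nonneg μ r fun y => mul_nonneg (hV y)
    (Finset.sum_nonneg fun _ _ => Finset.sum_nonneg fun _ _ => Finset.sum_nonneg fun _ _ =>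
      sq_nonneg _)

/-- at the bottom level the antisymmetric part vanishes -/
theorem AA_bot (hμ : CSupp μ R) (hs : 0 < s) (hsym : ∀ i j, pd (φ i) j = pd (φ j) i)
    (V : (Fin n → ℝ) → ℝ) : AA μ s V (fun i => UL μ s s (φ i)) = 0 := by
  have h2 : (fun y => V y * ∑ j, ∑ k, (pd (UL μ s s (φ k)) j y - pd (UL μ s s (φ j)) k y) ^ 2)
      = fun y => 0 * (0 : ℝ) := by
    funext y
    have : ∑ j, ∑ k, (pd (UL μ s s (φ k)) j y - pd (UL μ s s (φ j)) k y) ^ 2 = 0 := by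
      refine Finset.sum_eq_zero fun j _ => Finset.sum_eq_zero fun k _ => ?_
      rw [UL_self' hμ hs.ne', UL_self' hμ hs.ne', hsym j k, sub_self]
      ring
    rw [this]
    ring
  unfold AA
  rw [h2, EY_const_mul]
  ring

end

/-- **SYM**: derivative of `E_q |A|²` along the down path and the bound of the cross term -/
theorem deriv_AA (hρ0 : LCd ρ0) [IsProbabilityMeasure (mu ρ0)] (hμ : CSupp (mu ρ0) R)
    (hN : Pos N) {b : ℝ} (hb : 0 < b) (hbs : b ≤ s) (hφ : ∀ i, SB (φ i)) {ρ : ℝ}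
    (hρ : ρ ∈ Ioo s T) :
    ∃ X, HasDerivAt (fun ρ => AA (mu ρ0) ρ (PH (T - ρ) N) (fun i => UL (mu ρ0) s ρ (φ i)))
        (-(DA (mu ρ0) ρ (PH (T - ρ) N) (fun i => UL (mu ρ0) s ρ (φ i)) + 4 * X)) ρ ∧
      X ^ 2 ≤ AA (mu ρ0) ρ (PH (T - ρ) N) (fun i => UL (mu ρ0) s ρ (φ i))
        * (H991.BS (mu ρ0) ρ (PH (T - ρ) N) (fun i => UL (mu ρ0) s ρ (φ i)) / b) := by
  set μ := mu ρ0 with hμdef
  have hs : 0 < s := hb.trans_le hbs
  have hUL := thUL n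
  have hρ' : ρ ∈ Ioi s := hρ.1
  have hρpos : 0 < ρ := hs.trans hρ.1
  have key := down_quad (μ := μ) (I := Ioi s) (Finset.univ : Finset (Fin n × Fin n))
    (U := fun m σ y => gL μ s (φ m.2) m.1 σ y - gL μ s (φ m.1) m.2 σ y)
    (e := fun m σ y => (-∑ i, Pv μ i m.1 σ y * gL μ s (φ m.2) i σ y)
      - (-∑ i, Pv μ i m.2 σ y * gL μ s (φ m.1) i σ y))
    (a := fun m l σ y => hL μ s (φ m.2) m.1 l σ y - hL μ s (φ m.1) m.2 l σ y)
    (fun m => Um_sub (Um_gL hUL hμ hs (hφ m.2) m.1) (Um_gL hUL hμ hs (hφ m.1) m.2))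
    hμ isOpen_Ioi (gL_sub hs) hN.sb (c := T) (σ := ρ) hρ.1 hρ.2
  -- regularity at the level `ρ`
  have uN : UE (Ioi s) (fun ρ => PH (T - ρ) N) := UE_PH hN.sb T _
  have uG : ∀ k j, UE (Ioi s) (gL μ s (φ k) j) := fun k j =>
    (UE_gL hUL hμ hs (hφ k) j).mono Ioi_subset_Ici_self
  have uH : ∀ k j l, UE (Ioi s) (hL μ s (φ k) j l) := fun k j l =>
    (H1_gL hUL hμ hs (hφ k) j).ua l
  have uP : ∀ i j, UE (Ioi s) (Pv μ i j) := fun i j => (H1_Pv hμ i j).uf.mono (gL_sub hs)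
  -- the cross term
  set M : Fin n × Fin n → ℝ → (Fin n → ℝ) → ℝ := fun m σ y =>
    ∑ i, Pv μ i m.1 σ y * gL μ s (φ m.2) i σ y with hM
  set U : Fin n × Fin n → ℝ → (Fin n → ℝ) → ℝ := fun m σ y =>
    gL μ s (φ m.2) m.1 σ y - gL μ s (φ m.1) m.2 σ y with hU
  set W : Fin n × Fin n → Fin n → ℝ → (Fin n → ℝ) → ℝ := fun m l σ y =>
    hL μ s (φ m.2) m.1 l σ y - hL μ s (φ m.1) m.2 l σ y with hW
  have uM : ∀ m, UE (Ioi s) (M m) := fun m => UE.sum _ fun i _ => (uP i m.1).mul (uG m.2 i)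
  have uU : ∀ m, UE (Ioi s) (U m) := fun m => (uG m.2 m.1).sub (uG m.1 m.2)
  have uW : ∀ m l, UE (Ioi s) (W m l) := fun m l => (uH m.2 m.1 l).sub (uH m.1 m.2 l)
  have uDD : UE (Ioi s) (fun σ y => PH (T - σ) N y * ∑ m : Fin n × Fin n, ∑ l, W m l σ y ^ 2) :=
    uN.mul (UE.sum _ fun m _ => UE.sum _ fun l _ => by
      simpa only [sq] using (uW m l).mul (uW m l))
  have uXX : UE (Ioi s) (fun σ y => PH (T - σ) N y * ∑ m : Fin n × Fin n, M m σ y * U m σ y) :=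
    uN.mul (UE.sum _ fun m _ => (uM m).mul (uU m))
  have uMM : UE (Ioi s) (fun σ y => PH (T - σ) N y * ∑ m : Fin n × Fin n, M m σ y ^ 2) :=
    uN.mul (UE.sum _ fun m _ => by simpa only [sq] using (uM m).mul (uM m))
  have uUU : UE (Ioi s) (fun σ y => PH (T - σ) N y * ∑ m : Fin n × Fin n, U m σ y ^ 2) :=
    uN.mul (UE.sum _ fun m _ => by simpa only [sq] using (uU m).mul (uU m))
  have uFF : UE (Ioi s) (fun σ y => PH (T - σ) N y * ∑ k, ∑ i, ∑ j,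
      Pv μ i j σ y * gL μ s (φ k) i σ y * gL μ s (φ k) j σ y) :=
    uN.mul (UE.sum _ fun k _ => UE.sum _ fun i _ => UE.sum _ fun j _ =>
      ((uP i j).mul (uG k i)).mul (uG k j))
  have hpdUL : ∀ σ ∈ Ioi s, ∀ k j, pd (UL μ s σ (φ k)) j = gL μ s (φ k) j σ := fun σ hσ k j =>
    pd_UL' hUL hμ hs (hφ k) (show σ ∈ Ici s from (show s < σ from hσ).le) j
  have eAA : ∀ σ ∈ Ioi s, AA μ σ (PH (T - σ) N) (fun i => UL μ s σ (φ i))
      = EY μ σ (fun y => PH (T - σ) N y * ∑ m : Fin n × Fin n, U m σ y ^ 2) := by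
    intro σ hσ
    unfold AA
    congr 1
    funext y
    rw [Fintype.sum_prod_type]
    simp only [hpdUL σ hσ, hU]
  have eDA : DA μ ρ (PH (T - ρ) N) (fun i => UL μ s ρ (φ i))
      = EY μ ρ (fun y => PH (T - ρ) N y * ∑ m : Fin n × Fin n, ∑ l, W m l ρ y ^ 2) := by
    unfold DA
    congr 1
    funext y
    rw [Fintype.sum_prod_type]
    simp only [H991.pd_pd_UL hμ hs (hφ _) hρ.1, hW]
  have eBS : H991.BS μ ρ (PH (T - ρ) N) (fun i => UL μ s ρ (φ i))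
      = EY μ ρ (fun y => PH (T - ρ) N y * ∑ k, ∑ i, ∑ j,
        Pv μ i j ρ y * gL μ s (φ k) i ρ y * gL μ s (φ k) j ρ y) := by
    unfold H991.BS
    congr 1
    funext y
    simp only [hpdUL ρ hρ', PV_eq' hμ hρpos]
  refine ⟨EY μ ρ (fun y => PH (T - ρ) N y * ∑ m : Fin n × Fin n, M m ρ y * U m ρ y), ?_, ?_⟩
  · -- the derivative
    have hcongr : (fun ρ => AA μ ρ (PH (T - ρ) N) (fun i => UL μ s ρ (φ i))) =ᶠ[𝓝 ρ]
        (fun σ => EY μ σ (fun y => PH (T - σ) N y * ∑ m : Fin n × Fin n, U m σ y ^ 2)) := by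
      filter_upwards [Ioi_mem_nhds hρ.1] with σ hσ
      exact eAA σ hσ
    refine (key.congr_of_eventuallyEq hcongr).congr_deriv ?_
    rw [eDA]
    have e1 : -(EY μ ρ (fun y => PH (T - ρ) N y * ∑ m : Fin n × Fin n, ∑ l, W m l ρ y ^ 2)
        + 4 * EY μ ρ (fun y => PH (T - ρ) N y * ∑ m : Fin n × Fin n, M m ρ y * U m ρ y))
        = EY μ ρ (fun y => (-1) * (PH (T - ρ) N y * ∑ m : Fin n × Fin n, ∑ l, W m l ρ y ^ 2)
          + (-4) * (PH (T - ρ) N y * ∑ m : Fin n × Fin n, M m ρ y * U m ρ y)) := by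
      rw [EY_addU hμ (uDD.const_mul (-1)) (uXX.const_mul (-4)) hρ', EY_const_mul, EY_const_mul]
      ring
    rw [e1]
    congr 1
    funext y
    have hsw : ∑ m : Fin n × Fin n, M m.swap ρ y * U m ρ y
        = -∑ m : Fin n × Fin n, M m ρ y * U m ρ y := by
      have h1 : ∑ m : Fin n × Fin n, M m.swap ρ y * U m ρ y
          = ∑ m : Fin n × Fin n, M m ρ y * U m.swap ρ y := by
        refine Fintype.sum_equiv (Equiv.prodComm _ _) _ _ fun m => ?_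
        simp [Prod.swap]
      rw [h1, ← Finset.sum_neg_distrib]
      apply Finset.sum_congr rfl; intro m _
      have h2 : U m.swap ρ y = -U m ρ y := by simp only [hU, Prod.fst_swap, Prod.snd_swap]; ring
      rw [h2]; ring
    have h3 : ∑ m : Fin n × Fin n, (2 * ((-∑ i, Pv μ i m.1 ρ y * gL μ s (φ m.2) i ρ y)
      - (-∑ i, Pv μ i m.2 ρ y * gL μ s (φ m.1) i ρ y))
      * (gL μ s (φ m.2) m.1 ρ y - gL μ s (φ m.1) m.2 ρ y)
      - ∑ l, (hL μ s (φ m.2) m.1 l ρ y - hL μ s (φ m.1) m.2 l ρ y) ^ 2)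
        = -4 * ∑ m : Fin n × Fin n, M m ρ y * U m ρ y
          - ∑ m : Fin n × Fin n, ∑ l, W m l ρ y ^ 2 := by
      have h4 : ∀ m : Fin n × Fin n, (2 * ((-∑ i, Pv μ i m.1 ρ y * gL μ s (φ m.2) i ρ y)
          - (-∑ i, Pv μ i m.2 ρ y * gL μ s (φ m.1) i ρ y))
          * (gL μ s (φ m.2) m.1 ρ y - gL μ s (φ m.1) m.2 ρ y)
          - ∑ l, (hL μ s (φ m.2) m.1 l ρ y - hL μ s (φ m.1) m.2 l ρ y) ^ 2)
          = (-2) * (M m ρ y * U m ρ y) + 2 * (M m.swap ρ y * U m ρ y)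
            - ∑ l, W m l ρ y ^ 2 := by
        intro m
        simp only [hM, hU, hW, Prod.fst_swap, Prod.snd_swap]
        ring
      rw [Finset.sum_congr rfl fun m _ => h4 m, Finset.sum_sub_distrib, Finset.sum_add_distrib,
        ← Finset.mul_sum, ← Finset.mul_sum, hsw]
      ring
    rw [h3]
    ring
  · -- Cauchy-Schwarz
    rw [eAA ρ hρ', eBS]
    set A := EY μ ρ (fun y => PH (T - ρ) N y * ∑ m : Fin n × Fin n, U m ρ y ^ 2) with hA
    set Q := EY μ ρ (fun y => PH (T - ρ) N y * ∑ m : Fin n × Fin n, M m ρ y ^ 2) with hQ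
    set F := EY μ ρ (fun y => PH (T - ρ) N y * ∑ k, ∑ i, ∑ j,
        Pv μ i j ρ y * gL μ s (φ k) i ρ y * gL μ s (φ k) j ρ y) with hF
    set X := EY μ ρ (fun y => PH (T - ρ) N y * ∑ m : Fin n × Fin n, M m ρ y * U m ρ y) with hX
    have hA0 : 0 ≤ A := EY_nonneg μ ρ fun y => mul_nonneg (PHN_nonneg hN _ y)
      (Finset.sum_nonneg fun _ _ => sq_nonneg _)
    have hcs : X ^ 2 ≤ A * Q := by
      refine cs_of_quad fun t => ?_
      have h1 : 0 ≤ EY μ ρ (fun y => PH (T - ρ) N y *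
          ∑ m : Fin n × Fin n, (U m ρ y + t * M m ρ y) ^ 2) :=
        EY_nonneg μ ρ fun y => mul_nonneg (PHN_nonneg hN _ y)
          (Finset.sum_nonneg fun _ _ => sq_nonneg _)
      have h2 : EY μ ρ (fun y => PH (T - ρ) N y *
          ∑ m : Fin n × Fin n, (U m ρ y + t * M m ρ y) ^ 2) = A + 2 * t * X + t ^ 2 * Q := by
        have h3 : (fun y => PH (T - ρ) N y * ∑ m : Fin n × Fin n, (U m ρ y + t * M m ρ y) ^ 2)
            = fun y => PH (T - ρ) N y * ∑ m : Fin n × Fin n, U m ρ y ^ 2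
              + ((2 * t) * (PH (T - ρ) N y * ∑ m : Fin n × Fin n, M m ρ y * U m ρ y)
              + t ^ 2 * (PH (T - ρ) N y * ∑ m : Fin n × Fin n, M m ρ y ^ 2)) := by
          funext y
          have h4 : ∑ m : Fin n × Fin n, (U m ρ y + t * M m ρ y) ^ 2
              = ∑ m : Fin n × Fin n, U m ρ y ^ 2
                + (2 * t * ∑ m : Fin n × Fin n, M m ρ y * U m ρ y
                + t ^ 2 * ∑ m : Fin n × Fin n, M m ρ y ^ 2) := by
            rw [Finset.mul_sum, Finset.mul_sum, ← Finset.sum_add_distrib,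
              ← Finset.sum_add_distrib]
            apply Finset.sum_congr rfl; intro m _; ring
          rw [h4]
          ring
        rw [h3, EY_addU hμ uUU ((uXX.const_mul (2 * t)).add (uMM.const_mul (t ^ 2))) hρ',
          EY_addU hμ (uXX.const_mul (2 * t)) (uMM.const_mul (t ^ 2)) hρ', EY_const_mul,
          EY_const_mul]
        ring
      rw [h2] at h1
      linarith
    have hQF : Q ≤ F / b := by
      have h1 := EY_monoU hμ uMM (uFF.const_mul (1 / b)) hρ' (fun y => ?_)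
      · rw [EY_const_mul] at h1
        rw [div_eq_mul_inv, mul_comm, ← one_div]
        exact h1
      · have hNy : 0 ≤ PH (T - ρ) N y := PHN_nonneg hN _ y
        have h2 : ∑ m : Fin n × Fin n, M m ρ y ^ 2
            ≤ 1 / b * ∑ k, ∑ i, ∑ j, Pv μ i j ρ y * gL μ s (φ k) i ρ y * gL μ s (φ k) j ρ y := by
          rw [Fintype.sum_prod_type, Finset.sum_comm, Finset.mul_sum]
          refine Finset.sum_le_sum fun k _ => ?_
          have h3 := Pu_sq_le hρ0 hμ hρpos y (fun i => gL μ s (φ k) i ρ y)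
          have h4 := Pq_nonneg hρ0 hμ hρpos y (fun i => gL μ s (φ k) i ρ y)
          have h5 : 1 / ρ * Pq μ ρ y (fun i => gL μ s (φ k) i ρ y) (fun i => gL μ s (φ k) i ρ y)
              ≤ 1 / b * Pq μ ρ y (fun i => gL μ s (φ k) i ρ y) (fun i => gL μ s (φ k) i ρ y) :=
            mul_le_mul_of_nonneg_right
              (one_div_le_one_div_of_le hb (hbs.trans hρ.1.le)) h4
          exact h3.trans h5
        have h6 := mul_le_mul_of_nonneg_left h2 hNy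
        have h7 : PH (T - ρ) N y * (1 / b * ∑ k, ∑ i, ∑ j,
            Pv μ i j ρ y * gL μ s (φ k) i ρ y * gL μ s (φ k) j ρ y)
            = 1 / b * (PH (T - ρ) N y * ∑ k, ∑ i, ∑ j,
            Pv μ i j ρ y * gL μ s (φ k) i ρ y * gL μ s (φ k) j ρ y) := by ring
        rw [h7] at h6
        exact h6
    exact hcs.trans (mul_le_mul_of_nonneg_left hQF hA0)

end path

/-- **Row SYM**, packaged: `f_ρ = UL μ s ρ φ` (componentwise), `V_ρ = PH (T - ρ) N`. -/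
theorem sym {ρ0 : (Fin n → ℝ) → ℝ} {R : ℝ} (hρ0 : LCd ρ0) [IsProbabilityMeasure (mu ρ0)]
    (hμ : CSupp (mu ρ0) R) {N : (Fin n → ℝ) → ℝ} (hN : Pos N) {b s T : ℝ} (hb : 0 < b)
    (hbs : b ≤ s) {φ : Fin n → (Fin n → ℝ) → ℝ} (hφ : ∀ i, SB (φ i)) :
    ContinuousOn (fun ρ => AA (mu ρ0) ρ (PH (T - ρ) N) (fun i => UL (mu ρ0) s ρ (φ i)))
      (Icc s T) ∧
    (∀ ρ, 0 ≤ AA (mu ρ0) ρ (PH (T - ρ) N) (fun i => UL (mu ρ0) s ρ (φ i))) ∧
    (∀ ρ, 0 ≤ DA (mu ρ0) ρ (PH (T - ρ) N) (fun i => UL (mu ρ0) s ρ (φ i))) ∧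
    ((∀ i j, pd (φ i) j = pd (φ j) i) →
      AA (mu ρ0) s (PH (T - s) N) (fun i => UL (mu ρ0) s s (φ i)) = 0) ∧
    ∀ ρ ∈ Ioo s T, ∃ X,
      HasDerivAt (fun ρ => AA (mu ρ0) ρ (PH (T - ρ) N) (fun i => UL (mu ρ0) s ρ (φ i)))
        (-(DA (mu ρ0) ρ (PH (T - ρ) N) (fun i => UL (mu ρ0) s ρ (φ i)) + 4 * X)) ρ ∧
      X ^ 2 ≤ AA (mu ρ0) ρ (PH (T - ρ) N) (fun i => UL (mu ρ0) s ρ (φ i))
        * (H991.BS (mu ρ0) ρ (PH (T - ρ) N) (fun i => UL (mu ρ0) s ρ (φ i)) / b) :=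
  ⟨cont_AA hμ (hb.trans_le hbs) hN hφ, fun _ => AA_nonneg (fun y => PHN_nonneg hN _ y) _,
    fun _ => DA_nonneg (fun y => PHN_nonneg hN _ y) _,
    fun h => AA_bot hμ (hb.trans_le hbs) h _, fun _ hρ => deriv_AA hρ0 hμ hN hb hbs hφ hρ⟩

end Vale.Agent.P245.H719
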